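import Mathlib

/-!
# P079 (fixed point property for nonexpansive maps): approximate fixed points

A nonexpansive self-map of a nonempty closed bounded convex subset of a Banach space has
approximate fixed points: `inf ‖x - T x‖ = 0`.
-/

namespace Vale.Agent.Results.P079.ApproximateFixedPoints

open Set NNReal

theorem result {E : Type*} [NormedAddCommGroup E] [NormedSpace ℝ E] [CompleteSpace E]
    (C : Set E) (hne : C.Nonempty) (hcl : IsClosed C) (hcv : Convex ℝ C)
    (hbd : Bornology.IsBounded C) (T : E → E) (hT : MapsTo T C C)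
    (hnon : ∀ x ∈ C, ∀ y ∈ C, ‖T x - T y‖ ≤ ‖x - y‖) :
    ∀ ε > 0, ∃ x ∈ C, ‖x - T x‖ ≤ ε := by
  intro ε hε
  obtain ⟨x₀, hx₀⟩ := hne
  obtain ⟨D, hD⟩ := Metric.isBounded_iff.1 hbd
  have hD0 : 0 ≤ D := le_trans dist_nonneg (hD hx₀ hx₀)
  set t : ℝ := min (1 / 2) (ε / (D + 1)) with ht
  have ht0 : 0 < t := lt_min (by norm_num) (by positivity)
  have ht1 : t ≤ 1 / 2 := min_le_left _ _
  have htD : t * D ≤ ε := by
    have h1 : t ≤ ε / (D + 1) := min_le_right _ _
    have h2 : t * (D + 1) ≤ ε := by rwa [le_div_iff₀ (by positivity)] at h1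
    nlinarith
  set f : E → E := fun x => (1 - t) • T x + t • x₀ with hf
  have hfC : MapsTo f C C := by
    intro x hx
    exact hcv (hT hx) hx₀ (by linarith) ht0.le (by ring)
  have hK0 : 0 ≤ 1 - t := by linarith
  set K : ℝ≥0 := ⟨1 - t, hK0⟩ with hK
  have hcontr : ContractingWith K (hfC.restrict f C C) := by
    refine ⟨?_, LipschitzWith.of_dist_le_mul ?_⟩
    · rw [← NNReal.coe_lt_coe]
      show 1 - t < 1
      linarith
    · rintro ⟨x, hx⟩ ⟨y, hy⟩
      rw [Subtype.dist_eq, Subtype.dist_eq]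
      show dist (f x) (f y) ≤ (1 - t) * dist x y
      rw [dist_eq_norm, dist_eq_norm]
      have e : f x - f y = (1 - t) • (T x - T y) := by
        simp only [hf, smul_sub]
        abel
      rw [e, norm_smul, Real.norm_of_nonneg hK0]
      exact mul_le_mul_of_nonneg_left (hnon x hx y hy) hK0
  obtain ⟨y, hyC, hfix, -⟩ := hcontr.exists_fixedPoint' hcl.isComplete hfC hx₀ (edist_ne_top _ _)
  refine ⟨y, hyC, ?_⟩
  have hy : (1 - t) • T y + t • x₀ = y := hfix
  have e : y - T y = t • (x₀ - T y) := by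
    calc y - T y = ((1 - t) • T y + t • x₀) - T y := by rw [hy]
      _ = t • (x₀ - T y) := by
        simp only [sub_smul, smul_sub, one_smul]
        abel
  rw [e, norm_smul, Real.norm_of_nonneg ht0.le]
  have h3 : ‖x₀ - T y‖ ≤ D := by
    rw [← dist_eq_norm]
    exact hD hx₀ (hT hyC)
  calc t * ‖x₀ - T y‖ ≤ t * D := mul_le_mul_of_nonneg_left h3 ht0.le
    _ ≤ ε := htD

end Vale.Agent.Results.P079.ApproximateFixedPoints
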